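import Vale.Agent.P130.Main

/-!
# P130: simple Lebesgue spectrum for the free abelian group of countable rank
-/

open MeasureTheory

namespace Vale.Agent.Results.P130.FreeAbelian

open Vale.Agent.P130

/-- The free abelian group of countable rank has a measure-preserving action on a standard
nonatomic probability space with simple Lebesgue spectrum. -/
theorem result : ∃ (X : Type) (_ : MeasurableSpace X) (_ : StandardBorelSpace X) (μ : Measure X)
    (_ : IsProbabilityMeasure μ) (T : (ℕ →₀ ℤ) → X → X),
    (∀ x, μ {x} = 0) ∧ IsAction μ T ∧ SimpleLebesgue μ T :=
  main

end Vale.Agent.Results.P130.FreeAbelian
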